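import Vale.Agent.P181.H534.ThinHW

/-!
Highest weight vectors and the first row: the algebra of linear forms in `n + 1` variables.
-/

set_option autoImplicit false

open scoped TensorProduct Pointwise

namespace Vale.Agent.P181.H693

open Vale.Agent.P181 Vale.Agent.P181.H536 Vale.Agent.P181.H534 MvPolynomial H280

/-- Binary binomial forms of linear forms split into linear forms. -/
lemma hasRoots_linS (N : ℕ) : HasRoots (linS N) := by
  intro k hk x hx y hy t
  obtain ⟨s, hs⟩ := IsAlgClosed.exists_pow_nat_eq (-t) hk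
  obtain ⟨ζ, hζ⟩ : ∃ ζ : ℂ, IsPrimitiveRoot ζ k :=
    ⟨_, Complex.isPrimitiveRoot_exp k hk.ne'⟩
  refine ⟨(Polynomial.nthRootsFinset k (1 : ℂ)).val.map (fun ω => x - (ω * s) • y), ?_, ?_, ?_⟩
  · rw [Multiset.card_map, Finset.card_val, hζ.card_nthRootsFinset]
  · intro z hz
    obtain ⟨ω, -, rfl⟩ := Multiset.mem_map.1 hz
    exact (linS N).sub_mem hx ((linS N).smul_mem _ hy)
  · have h1 : (Multiset.map (fun ω => x - (ω * s) • y)
        (Polynomial.nthRootsFinset k (1 : ℂ)).val).prod =
        ∏ ω ∈ Polynomial.nthRootsFinset k (1 : ℂ), (x - (ω * s) • y) := rfl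
    rw [h1]
    apply MvPolynomial.funext
    intro v
    rw [map_prod]
    have h2 := hζ.pow_sub_pow_eq_prod_sub_mul (eval v x) (s * eval v y) hk
    rw [mul_pow, hs] at h2
    simp only [map_add, map_sub, map_pow, MvPolynomial.smul_eval]
    rw [neg_mul, sub_neg_eq_add] at h2
    rw [h2]
    apply Finset.prod_congr rfl
    intro ω _
    ring

/-- The variables other than the first one. -/
noncomputable def ZZ1 (n : ℕ) : Submodule ℂ (MvPolynomial (Fin (n + 1)) ℂ) :=
  Submodule.span ℂ (Set.range (fun i : Fin n => (X i.succ : MvPolynomial (Fin (n + 1)) ℂ)))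

lemma sup_eq1 (n : ℕ) :
    Submodule.span ℂ {(X 0 : MvPolynomial (Fin (n + 1)) ℂ)} ⊔ ZZ1 n = linS (n + 1) := by
  apply le_antisymm
  · apply sup_le
    · rw [Submodule.span_le]
      rintro _ rfl
      exact X_mem_linS _
    · rw [ZZ1, Submodule.span_le]
      rintro _ ⟨i, rfl⟩
      exact X_mem_linS _
  · rw [linS, Submodule.span_le]
    rintro _ ⟨i, rfl⟩
    refine Fin.cases ?_ (fun i => ?_) i
    · exact Submodule.mem_sup_left (Submodule.subset_span rfl)
    · exact Submodule.mem_sup_right (Submodule.subset_span ⟨i, rfl⟩)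

lemma card_ne_zero_eq {a b n : ℕ} (c : Fin a → Fin b → Fin (n + 1)) :
    (Finset.univ.filter (fun x : Fin a × Fin b => c x.1 x.2 ≠ 0)).card =
      ∑ i : Fin n, cnt c i.succ := by
  classical
  have h1 : (Finset.univ.filter (fun x : Fin a × Fin b => c x.1 x.2 ≠ 0)) =
      Finset.univ.biUnion (fun i : Fin n =>
        Finset.univ.filter (fun x : Fin a × Fin b => c x.1 x.2 = i.succ)) := by
    ext x
    simp only [Finset.mem_filter, Finset.mem_univ, true_and, Finset.mem_biUnion]
    constructor
    · intro h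
      obtain ⟨j, hj⟩ := Fin.exists_succ_eq.2 h
      exact ⟨j, hj.symm⟩
    · rintro ⟨j, hj⟩
      rw [hj]
      exact Fin.succ_ne_zero j
  rw [h1, Finset.card_biUnion]
  · rfl
  · intro i _ j _ hij
    rw [Function.onFun, Finset.disjoint_left]
    intro x hx hx'
    rw [Finset.mem_filter] at hx hx'
    exact hij (Fin.succ_injective n (hx.2.symm.trans hx'.2))

/-- The form of a highest weight vector vanishes off the weight of the rows below the first. -/
lemma formOf_card {a b n : ℕ} (lam : Fin (n + 1) → ℕ)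
    (l : (Fin a → Fin b → (Fin (n + 1) → ℂ)) →₀ ℂ)
    (hx : elOf l ∈ hwSpace lam (plethAct a b (n + 1))) (c : Fin a → Fin b → Fin (n + 1))
    (hc : (Finset.univ.filter (fun x : Fin a × Fin b => c x.1 x.2 ≠ 0)).card ≠
      ∑ i : Fin n, lam i.succ) : formOf l (fun i => ∏ j, X (c i j)) = 0 := by
  by_contra h0
  apply hc
  rw [card_ne_zero_eq]
  apply Finset.sum_congr rfl
  intro i _
  by_contra h1
  exact h0 (formOf_wt lam l hx c i.succ h1)

/-- Products of linear forms with at least `d` factors among the variables other than the first. -/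
def Mon (b n d : ℕ) : Set (MvPolynomial (Fin (n + 1)) ℂ) :=
  {p | ∃ c : Fin b → Fin (n + 1), d ≤ (Finset.univ.filter (fun j => c j ≠ 0)).card ∧
    ∏ j, X (c j) = p}

lemma pow_mul_pow_le {b n d : ℕ} (hd : d ≤ b) :
    ZZ1 n ^ d * linS (n + 1) ^ (b - d) ≤ Submodule.span ℂ (Mon b n d) := by
  classical
  obtain ⟨e, rfl⟩ := Nat.exists_eq_add_of_le hd
  rw [Nat.add_sub_cancel_left, ZZ1, linS, Submodule.span_pow, Submodule.span_pow,
    Submodule.span_mul_span, Submodule.span_le]
  rintro _ ⟨x, hx, y, hy, rfl⟩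
  apply Submodule.subset_span
  rw [Set.mem_pow] at hx hy
  obtain ⟨f, rfl⟩ := hx
  obtain ⟨g, rfl⟩ := hy
  choose f' hf' using fun i => (f i).2
  choose g' hg' using fun i => (g i).2
  refine ⟨Fin.append (fun i => (f' i).succ) g', ?_, ?_⟩
  · have h1 : (Finset.univ.map (Fin.castAddEmb e (n := d))).card ≤
        (Finset.univ.filter (fun j => Fin.append (fun i => (f' i).succ) g' j ≠ 0)).card := by
      apply Finset.card_le_card
      intro j hj
      rw [Finset.mem_map] at hj
      obtain ⟨i, -, rfl⟩ := hj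
      rw [Finset.mem_filter]
      refine ⟨Finset.mem_univ _, ?_⟩
      rw [Fin.castAddEmb_apply, Fin.append_left]
      exact Fin.succ_ne_zero _
    rwa [Finset.card_map, Finset.card_univ, Fintype.card_fin] at h1
  · rw [Fin.prod_univ_add]
    simp only [Fin.append_left, Fin.append_right, List.prod_ofFn]
    congr 1
    · exact Finset.prod_congr rfl (fun i _ => hf' i)
    · exact Finset.prod_congr rfl (fun i _ => hg' i)

/-- The form of a highest weight vector vanishes on arguments with too many letters below the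
first row. -/
lemma zv_formOf {a b n : ℕ} (lam : Fin (n + 1) → ℕ)
    (l : (Fin a → Fin b → (Fin (n + 1) → ℂ)) →₀ ℂ)
    (hx : elOf l ∈ hwSpace lam (plethAct a b (n + 1))) (d : Fin a → ℕ) (hd : ∀ i, d i ≤ b)
    (P : Fin a → MvPolynomial (Fin (n + 1)) ℂ)
    (hP : ∀ i, P i ∈ ZZ1 n ^ d i * linS (n + 1) ^ (b - d i))
    (hr : ∑ i : Fin n, lam i.succ < ∑ i, d i) : formOf l P = 0 := by
  classical
  apply multilinear_zero_of_span' (formOf l) (fun i => Mon b n (d i))
  · intro w hw
    choose c hc1 hc2 using hw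
    have h1 : w = fun i => ∏ j, X (c i j) := by
      funext i
      exact (hc2 i).symm
    rw [h1]
    apply formOf_card lam l hx c
    apply ne_of_gt
    refine lt_of_lt_of_le hr ?_
    have h2 : (Finset.univ.filter (fun x : Fin a × Fin b => c x.1 x.2 ≠ 0)).card =
        ∑ i, (Finset.univ.filter (fun j => c i j ≠ 0)).card := by
      rw [Finset.card_filter, ← Finset.univ_product_univ, Finset.sum_product]
      apply Finset.sum_congr rfl
      intro i _
      rw [Finset.card_filter]
    rw [h2]
    exact Finset.sum_le_sum (fun i _ => hc1 i)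
  · intro i
    exact pow_mul_pow_le (hd i) (hP i)

end Vale.Agent.P181.H693
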